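import Mathlib

/-!
# P220.DiagonalSpheres v2, row R3
-/

set_option autoImplicit false

namespace Vale.Agent.P220.R2.H422

/-- the moment form -/
def MM {V : Type} [NormedAddCommGroup V] [InnerProductSpace ℝ V] (x y p r v w : V) : ℝ :=
  inner ℝ v x * inner ℝ w p - inner ℝ w x * inner ℝ v p +
    (inner ℝ v y * inner ℝ w r - inner ℝ w y * inner ℝ v r)

section

variable {V : Type} [NormedAddCommGroup V] [InnerProductSpace ℝ V]

theorem J_left {J : V ≃ₗᵢ[ℝ] V} (hJ : ∀ x, J (J x) = -x) (a b : V) :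
    (inner ℝ (J a) b : ℝ) = -inner ℝ a (J b) := by
  rw [← J.inner_map_map (J a) b, hJ, inner_neg_left]

theorem J_self {J : V ≃ₗᵢ[ℝ] V} (hJ : ∀ x, J (J x) = -x) (a : V) :
    (inner ℝ (J a) a : ℝ) = 0 := by
  have h := J_left hJ a a
  rw [real_inner_comm] at h ⊢
  linarith

theorem exists_unit [FiniteDimensional ℝ V] {J : V ≃ₗᵢ[ℝ] V} (h4 : 4 ≤ Module.finrank ℝ V)
    (a r : V) (h1 : (inner ℝ a r : ℝ) = 0) (h2 : (inner ℝ (J a) r : ℝ) = 0) :
    ∃ u : V, ‖u‖ = 1 ∧ (inner ℝ a u : ℝ) = 0 ∧ (inner ℝ (J a) u : ℝ) = 0 ∧ ∃ t : ℝ, r = t • u := by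
  by_cases hr : r = 0
  · have hlt : Module.finrank ℝ (Submodule.span ℝ ({a, J a} : Set V)) < Module.finrank ℝ V := by
      have h3 : Module.finrank ℝ (Submodule.span ℝ ({a, J a} : Set V)) ≤ 2 := by
        classical
        have := finrank_span_finset_le_card (R := ℝ) ({a, J a} : Finset V)
        have h5 : ({a, J a} : Finset V).card ≤ 2 := Finset.card_le_two
        simp only [Finset.coe_insert, Finset.coe_singleton] at this
        exact this.trans h5
      omega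
    have hne : (Submodule.span ℝ ({a, J a} : Set V))ᗮ ≠ ⊥ := by
      intro hbot
      have h6 := Submodule.finrank_add_finrank_orthogonal (Submodule.span ℝ ({a, J a} : Set V))
      rw [hbot, finrank_bot] at h6
      omega
    obtain ⟨b, hb, hb0⟩ := Submodule.exists_mem_ne_zero_of_ne_bot hne
    have hbn : ‖b‖ ≠ 0 := norm_ne_zero_iff.2 hb0
    refine ⟨(‖b‖⁻¹ : ℝ) • b, ?_, ?_, ?_, 0, by rw [hr, zero_smul]⟩
    · rw [norm_smul, norm_inv, norm_norm, inv_mul_cancel₀ hbn]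
    · rw [inner_smul_right, (Submodule.mem_orthogonal _ _).1 hb a
        (Submodule.subset_span (by simp)), mul_zero]
    · rw [inner_smul_right, (Submodule.mem_orthogonal _ _).1 hb (J a)
        (Submodule.subset_span (by simp)), mul_zero]
  · have hrn : ‖r‖ ≠ 0 := norm_ne_zero_iff.2 hr
    refine ⟨(‖r‖⁻¹ : ℝ) • r, ?_, ?_, ?_, ‖r‖, ?_⟩
    · rw [norm_smul, norm_inv, norm_norm, inv_mul_cancel₀ hrn]
    · rw [inner_smul_right, h1, mul_zero]
    · rw [inner_smul_right, h2, mul_zero]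
    · rw [smul_smul, mul_inv_cancel₀ hrn, one_smul]

theorem polar {J : V ≃ₗᵢ[ℝ] V} (hJ : ∀ x, J (J x) = -x) {x y p r : V}
    (m1 : ∀ v w : V, ‖v‖ = 1 → ‖w‖ = 1 → inner ℝ v w = (0 : ℝ) → inner ℝ v (J w) = (0 : ℝ) →
      MM x y p r v w + MM x y p r (J v) (J w) = 0)
    (m2 : ∀ v : V, ‖v‖ = 1 → MM x y p r v (J v) = 0) (v w : V) :
    MM x y p r v w + MM x y p r (J v) (J w) = 0 := by
  by_cases hv : v = 0
  · subst hv
    simp [MM]
  have hvn : ‖v‖ ≠ 0 := norm_ne_zero_iff.2 hv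
  have m2' : MM x y p r v (J v) = 0 := by
    have h := m2 ((‖v‖⁻¹ : ℝ) • v) (by rw [norm_smul, norm_inv, norm_norm, inv_mul_cancel₀ hvn])
    have e : MM x y p r ((‖v‖⁻¹ : ℝ) • v) (J ((‖v‖⁻¹ : ℝ) • v)) =
        ‖v‖⁻¹ * ‖v‖⁻¹ * MM x y p r v (J v) := by
      simp only [MM, map_smul, inner_smul_left, conj_trivial]
      ring
    rw [e] at h
    rcases mul_eq_zero.1 h with h' | h'
    · exact absurd h' (mul_ne_zero (inv_ne_zero hvn) (inv_ne_zero hvn))
    · exact h'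
  set α : ℝ := inner ℝ v w / ‖v‖ ^ 2 with hα
  set β : ℝ := inner ℝ (J v) w / ‖v‖ ^ 2 with hβ
  set w' : V := w - α • v - β • J v with hw'
  have hv2 : ‖v‖ ^ 2 ≠ 0 := pow_ne_zero 2 hvn
  have s0 := J_self hJ v
  have s0' : (inner ℝ v (J v) : ℝ) = 0 := by rw [real_inner_comm]; exact s0
  have o1 : (inner ℝ v w' : ℝ) = 0 := by
    rw [hw', inner_sub_right, inner_sub_right, inner_smul_right, inner_smul_right, s0',
      real_inner_self_eq_norm_sq, hα]
    field_simp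
    ring
  have o2 : (inner ℝ (J v) w' : ℝ) = 0 := by
    rw [hw', inner_sub_right, inner_sub_right, inner_smul_right, inner_smul_right, s0,
      real_inner_self_eq_norm_sq, J.norm_map, hβ]
    field_simp
    ring
  have hw : w = α • v + β • J v + w' := by
    rw [hw']
    abel
  have e1 : MM x y p r v w + MM x y p r (J v) (J w) =
      2 * β * MM x y p r v (J v) + (MM x y p r v w' + MM x y p r (J v) (J w')) := by
    conv_lhs => rw [hw]
    simp only [MM, map_add, map_smul, inner_add_left, inner_smul_left, conj_trivial, hJ,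
      inner_neg_left]
    ring
  rw [e1, m2', mul_zero, zero_add]
  by_cases h0 : w' = 0
  · rw [h0]
    simp [MM]
  have hwn : ‖w'‖ ≠ 0 := norm_ne_zero_iff.2 h0
  have h := m1 ((‖v‖⁻¹ : ℝ) • v) ((‖w'‖⁻¹ : ℝ) • w')
    (by rw [norm_smul, norm_inv, norm_norm, inv_mul_cancel₀ hvn])
    (by rw [norm_smul, norm_inv, norm_norm, inv_mul_cancel₀ hwn])
    (by rw [inner_smul_left, inner_smul_right, o1, mul_zero, mul_zero])
    (by
      have h3 := J_left hJ v w'
      rw [o2] at h3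
      rw [map_smul, inner_smul_left, inner_smul_right]
      have h5 : (inner ℝ v (J w') : ℝ) = 0 := by linarith
      rw [h5, mul_zero, mul_zero])
  have e : MM x y p r ((‖v‖⁻¹ : ℝ) • v) ((‖w'‖⁻¹ : ℝ) • w') +
      MM x y p r (J ((‖v‖⁻¹ : ℝ) • v)) (J ((‖w'‖⁻¹ : ℝ) • w')) =
      ‖v‖⁻¹ * ‖w'‖⁻¹ * (MM x y p r v w' + MM x y p r (J v) (J w')) := by
    simp only [MM, map_smul, inner_smul_left, conj_trivial]
    ring
  rw [e] at h
  rcases mul_eq_zero.1 h with h' | h'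
  · exact absurd h' (mul_ne_zero (inv_ne_zero hvn) (inv_ne_zero hwn))
  · exact h'

end

/-- ROW R3 -/
theorem row_MJ {V : Type} [NormedAddCommGroup V] [InnerProductSpace ℝ V] [FiniteDimensional ℝ V]
    {J : V ≃ₗᵢ[ℝ] V} (hJ : ∀ x, J (J x) = -x) (h4 : 4 ≤ Module.finrank ℝ V) {x y p r : V}
    (hn : ‖x‖ ^ 2 + ‖y‖ ^ 2 = 1) (h1 : inner ℝ x y = (0 : ℝ)) (h2 : inner ℝ x (J y) = (0 : ℝ))
    (t1 : (inner ℝ x p + inner ℝ y r : ℝ) = 0) (t2 : (inner ℝ x r + inner ℝ p y : ℝ) = 0)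
    (t3 : (inner ℝ x (J r) + inner ℝ p (J y) : ℝ) = 0)
    (m1 : ∀ v w : V, ‖v‖ = 1 → ‖w‖ = 1 → inner ℝ v w = (0 : ℝ) → inner ℝ v (J w) = (0 : ℝ) →
      MM x y p r v w + MM x y p r (J v) (J w) = 0)
    (m2 : ∀ v : V, ‖v‖ = 1 → MM x y p r v (J v) = 0) :
    ∃ e u : V, ‖e‖ = 1 ∧ ‖u‖ = 1 ∧ inner ℝ e u = (0 : ℝ) ∧ inner ℝ e (J u) = (0 : ℝ) ∧
      (∃ s t : ℝ, x = s • e ∧ p = t • e) ∧ ∃ s t : ℝ, y = s • u ∧ r = t • u := by
  have hB := polar hJ m1 m2
  have h1' : (inner ℝ y x : ℝ) = 0 := by rw [real_inner_comm]; exact h1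
  have h2' : (inner ℝ (J x) y : ℝ) = 0 := by rw [J_left hJ, h2, neg_zero]
  have h2c : (inner ℝ (J y) x : ℝ) = 0 := by rw [real_inner_comm]; exact h2
  have h2d : (inner ℝ y (J x) : ℝ) = 0 := by rw [real_inner_comm]; exact h2'
  have xx := J_self hJ x
  have yy := J_self hJ y
  have F1 : ∀ v : V, (inner ℝ v x : ℝ) * inner ℝ x p - ‖x‖ ^ 2 * inner ℝ v p +
      inner ℝ v y * inner ℝ x r + inner ℝ (J v) x * inner ℝ (J x) p +
      inner ℝ (J v) y * inner ℝ (J x) r = 0 := by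
    intro v
    have h := hB v x
    unfold MM at h
    rw [real_inner_self_eq_norm_sq, h1, xx, h2'] at h
    linarith
  have F2 : ∀ v : V, (inner ℝ v x : ℝ) * inner ℝ y p - ‖y‖ ^ 2 * inner ℝ v r +
      inner ℝ v y * inner ℝ y r + inner ℝ (J v) x * inner ℝ (J y) p +
      inner ℝ (J v) y * inner ℝ (J y) r = 0 := by
    intro v
    have h := hB v y
    unfold MM at h
    rw [real_inner_self_eq_norm_sq, h1', yy, h2c] at h
    linarith
  -- the scalar identities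
  have a1 : ‖x‖ ^ 2 * (inner ℝ (J x) p : ℝ) = 0 := by
    have h := F1 (J x)
    rw [xx, h2', hJ, inner_neg_left, inner_neg_left, real_inner_self_eq_norm_sq, h1] at h
    linarith
  have a1' : (inner ℝ (J x) p : ℝ) = 0 := by
    rcases mul_eq_zero.1 a1 with h | h
    · have hx : x = 0 := norm_eq_zero.1 (pow_eq_zero_iff two_ne_zero |>.1 h)
      rw [hx, map_zero, inner_zero_left]
    · exact h
  have a2 : (inner ℝ x r : ℝ) = 0 := by
    have h := F1 y
    rw [h1', h2c, yy, real_inner_self_eq_norm_sq] at h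
    have h3 : (inner ℝ y p : ℝ) = -inner ℝ x r := by
      rw [real_inner_comm]
      linarith
    rw [h3] at h
    have h5 : (‖x‖ ^ 2 + ‖y‖ ^ 2) * (inner ℝ x r : ℝ) = 0 := by linarith
    rw [hn, one_mul] at h5
    exact h5
  have a2' : (inner ℝ p y : ℝ) = 0 := by linarith
  have a3 : (inner ℝ (J x) r : ℝ) = 0 := by
    have h := F1 (J y)
    rw [h2c, yy, hJ, inner_neg_left, inner_neg_left, real_inner_self_eq_norm_sq, h1'] at h
    have h3 : (inner ℝ (J y) p : ℝ) = inner ℝ (J x) r := by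
      rw [real_inner_comm, J_left hJ x r]
      linarith
    rw [h3] at h
    have h5 : (‖x‖ ^ 2 + ‖y‖ ^ 2) * (inner ℝ (J x) r : ℝ) = 0 := by linarith
    rw [hn, one_mul] at h5
    exact h5
  have a3' : (inner ℝ p (J y) : ℝ) = 0 := by
    have := J_left hJ x r
    linarith
  have a4 : (inner ℝ (J y) r : ℝ) = 0 := by
    have h := F2 (J y)
    rw [h2c, yy, hJ, inner_neg_left, inner_neg_left, real_inner_self_eq_norm_sq, h1'] at h
    have h3 : ‖y‖ ^ 2 * (inner ℝ (J y) r : ℝ) = 0 := by linarith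
    rcases mul_eq_zero.1 h3 with h5 | h5
    · have hy : y = 0 := norm_eq_zero.1 (pow_eq_zero_iff two_ne_zero |>.1 h5)
      rw [hy, map_zero, inner_zero_left]
    · exact h5
  have v1 : (‖x‖ ^ 2 : ℝ) • p = (inner ℝ x p : ℝ) • x := by
    refine ext_inner_left ℝ fun v => ?_
    have h := F1 v
    rw [a1', a2, a3] at h
    rw [inner_smul_right, inner_smul_right]
    linarith
  have v2 : (‖y‖ ^ 2 : ℝ) • r = (inner ℝ y r : ℝ) • y := by
    refine ext_inner_left ℝ fun v => ?_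
    have h := F2 v
    have h3 : (inner ℝ y p : ℝ) = 0 := by rw [real_inner_comm]; exact a2'
    have h5 : (inner ℝ (J y) p : ℝ) = 0 := by rw [real_inner_comm]; exact a3'
    rw [h3, h5, a4] at h
    rw [inner_smul_right, inner_smul_right]
    linarith
  by_cases hx : x = 0
  · -- `x = 0`
    have hy1 : ‖y‖ = 1 := by
      rw [hx, norm_zero] at hn
      have : ‖y‖ ^ 2 = 1 := by linarith
      nlinarith [norm_nonneg y]
    obtain ⟨e, he, e1, e2, t, ht⟩ := exists_unit (J := J) h4 y p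
      (by rw [real_inner_comm]; exact a2') (by rw [real_inner_comm]; exact a3')
    refine ⟨e, y, he, hy1, by rw [real_inner_comm]; exact e1, by rw [real_inner_comm]; exact e2,
      ⟨0, t, by rw [hx, zero_smul], ht⟩, 1, inner ℝ y r, by rw [one_smul], ?_⟩
    rw [← v2, hy1, one_pow, one_smul]
  by_cases hy : y = 0
  · have hx1 : ‖x‖ = 1 := by
      rw [hy, norm_zero] at hn
      have : ‖x‖ ^ 2 = 1 := by linarith
      nlinarith [norm_nonneg x]
    obtain ⟨u, hu, e1, e2, t, ht⟩ := exists_unit (J := J) h4 x r a2 a3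
    refine ⟨x, u, hx1, hu, e1, by
      have := J_left hJ x u
      linarith, ⟨1, inner ℝ x p, by rw [one_smul], ?_⟩, 0, t, by rw [hy, zero_smul], ht⟩
    rw [← v1, hx1, one_pow, one_smul]
  have hxn : ‖x‖ ≠ 0 := norm_ne_zero_iff.2 hx
  have hyn : ‖y‖ ≠ 0 := norm_ne_zero_iff.2 hy
  refine ⟨(‖x‖⁻¹ : ℝ) • x, (‖y‖⁻¹ : ℝ) • y, ?_, ?_, ?_, ?_, ⟨‖x‖, inner ℝ x p / ‖x‖, ?_, ?_⟩,
    ‖y‖, inner ℝ y r / ‖y‖, ?_, ?_⟩
  · rw [norm_smul, norm_inv, norm_norm, inv_mul_cancel₀ hxn]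
  · rw [norm_smul, norm_inv, norm_norm, inv_mul_cancel₀ hyn]
  · rw [inner_smul_left, inner_smul_right, h1, mul_zero, mul_zero]
  · rw [map_smul, inner_smul_left, inner_smul_right, h2, mul_zero, mul_zero]
  · rw [smul_smul, mul_inv_cancel₀ hxn, one_smul]
  · calc p = (‖x‖ ^ 2)⁻¹ • ((‖x‖ ^ 2 : ℝ) • p) := by
          rw [smul_smul, inv_mul_cancel₀ (pow_ne_zero 2 hxn), one_smul]
      _ = ((‖x‖ ^ 2)⁻¹ * inner ℝ x p : ℝ) • x := by rw [v1, smul_smul]
      _ = (inner ℝ x p / ‖x‖ * ‖x‖⁻¹ : ℝ) • x := by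
          congr 1
          field_simp
      _ = _ := (smul_smul _ _ _).symm
  · rw [smul_smul, mul_inv_cancel₀ hyn, one_smul]
  · calc r = (‖y‖ ^ 2)⁻¹ • ((‖y‖ ^ 2 : ℝ) • r) := by
          rw [smul_smul, inv_mul_cancel₀ (pow_ne_zero 2 hyn), one_smul]
      _ = ((‖y‖ ^ 2)⁻¹ * inner ℝ y r : ℝ) • y := by rw [v2, smul_smul]
      _ = (inner ℝ y r / ‖y‖ * ‖y‖⁻¹ : ℝ) • y := by
          congr 1
          field_simp
      _ = _ := (smul_smul _ _ _).symm

end Vale.Agent.P220.R2.H422
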